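import Vale.Agent.P091.AD.H188.Core
import Vale.Agent.P091.AD.H347.HMono
import Vale.Agent.P091.AD.H347.LemmaB
import Vale.Agent.P091.AD.H356.LookA
import Vale.Agent.P091.AD.H356.LookB
import Vale.Agent.P091.AD.H257.Gibbs
import Vale.Agent.P091.AD.H257.Win
import Vale.Agent.P091.AD.H279.Window
import Vale.Agent.P091.AD.H468.Loc
import Vale.Agent.P091.AD.H832.LemmaC
import Vale.Agent.P091.AD.H880.Trunc

/-! # AD block: assembly of `Core` from the rows (helper134) -/

namespace Vale.Agent.P091.AD.H134

open Vale.Agent.P091.AD

/-- Lemma C from the local step -/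
theorem lemmaC_of_locStep (h : LocStep) : LemmaC :=
  H832.lemmaC_of gibbs_law H279.window winMono H468.locExtract h

/-- Lemma B -/
theorem lemmaB : LemmaB :=
  H347.lemmaB_of H347.hMono H880.trunc H356.lookA H356.lookB

/-- the output of the AD block from the local step -/
theorem core_of_locStep (h : LocStep) : Core :=
  H188.core_of H347.hMono H880.trunc H356.lookA H356.lookB lemmaB (lemmaC_of_locStep h)

end Vale.Agent.P091.AD.H134
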