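import Vale.Agent.P091.AD.Base

/-!
# P091, block AD: refinements of labelled laws and truncation (helper134)
-/

set_option autoImplicit false

open Finset Real
open Vale.Agent.P065.Ent

noncomputable section

namespace Vale.Agent.P091.AD

/-- the expectation of a function of `Y`, computed over any finite set containing its values -/
theorem sum_fiber' {Ω β : Type*} [Fintype Ω] [DecidableEq β] (μ : Ω → ℝ) (Y : Ω → β) (F : β → ℝ)
    (S : Finset β) (hS : ∀ ω, Y ω ∈ S) : ∑ ω, μ ω * F (Y ω) = ∑ y ∈ S, Pr μ Y y * F y := by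
  classical
  rw [sum_fiber μ Y F]
  refine sum_subset (fun y hy => ?_) (fun y _ hy => ?_)
  · obtain ⟨ω, -, rfl⟩ := mem_image.mp hy
    exact hS ω
  · rw [Pr_eq_zero Y (fun ω h => hy (mem_image.mpr ⟨ω, mem_univ ω, h⟩)), zero_mul]

/-- expectations depend only on the law -/
theorem sum_of_law {Ω Ω' β : Type*} [Fintype Ω] [Fintype Ω'] (μ : Ω → ℝ) (μ' : Ω' → ℝ)
    (Y : Ω → β) (Y' : Ω' → β) (F : β → ℝ) (h : ∀ y, Pr μ Y y = Pr μ' Y' y) :
    ∑ ω, μ ω * F (Y ω) = ∑ ω, μ' ω * F (Y' ω) := by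
  classical
  rw [sum_fiber' μ Y F (univ.image Y ∪ univ.image Y')
      (fun ω => mem_union_left _ (mem_image_of_mem Y (mem_univ ω))),
    sum_fiber' μ' Y' F (univ.image Y ∪ univ.image Y')
      (fun ω => mem_union_right _ (mem_image_of_mem Y' (mem_univ ω)))]
  exact sum_congr rfl fun y _ => by rw [h y]

/-- `lam1` refines `lam`: after applying `g` to its label the letter and the label have the law
of `lam` -/
def Ref {Γ : Type} (lam lam1 : Law Γ) (g : lam1.Z → lam.Z) : Prop :=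
  ∀ y : Γ × lam.Z, Pr lam1.μ (fun ω => (lam1.a ω, g (lam1.z ω))) y
    = Pr lam.μ (fun ω => (lam.a ω, lam.z ω)) y

theorem Ref.refl {Γ : Type} (lam : Law Γ) : Ref lam lam id := fun _ => rfl

theorem Ref.trans {Γ : Type} {lam lam1 lam2 : Law Γ} {g : lam1.Z → lam.Z} {g' : lam2.Z → lam1.Z}
    (h : Ref lam lam1 g) (h' : Ref lam1 lam2 g') : Ref lam lam2 (fun l => g (g' l)) := by
  classical
  intro y
  rw [← h y]
  have h1 := sum_of_law lam2.μ lam1.μ (fun ω => (lam2.a ω, g' (lam2.z ω)))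
    (fun ω => (lam1.a ω, lam1.z ω)) (fun p => if (p.1, g p.2) = y then 1 else 0) h'
  unfold Pr
  simp only [mul_ite, mul_one, mul_zero] at h1
  convert h1

/-- marginals of a product weight -/
theorem Pr_prod_fst {Ω Ω' β : Type*} [Fintype Ω] [Fintype Ω'] (μ : Ω → ℝ) (ν : Ω' → ℝ)
    (hν : ∑ w, ν w = 1) (Y : Ω → β) (y : β) :
    Pr (fun w : Ω × Ω' => μ w.1 * ν w.2) (fun w => Y w.1) y = Pr μ Y y := by
  unfold Pr
  rw [Fintype.sum_prod_type]
  refine sum_congr rfl fun ω _ => ?_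
  simp only
  split_ifs
  · rw [← mul_sum, hν, mul_one]
  · exact sum_const_zero

theorem looks_ref {Γ : Type} [AddCommGroup Γ] (lam : Law Γ) (q K : ℕ) :
    Ref lam (lam.looks q K) Prod.fst := fun y =>
  Pr_prod_fst lam.μ (pw (ι := Fin K) (pw (ι := Fin q) lam.beta))
    (pw_isProb (pw_isProb lam.beta_isProb)).sum (fun ω => (lam.a ω, lam.z ω)) y

theorem Law.sum_Pr_le {Γ : Type} (lam : Law Γ) (A : Finset Γ) (z : lam.Z) :
    ∑ x ∈ A, Pr lam.μ (fun ω => (lam.a ω, lam.z ω)) (x, z) ≤ Pr lam.μ lam.z z := by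
  classical
  rw [← sum_Pr_pair lam.μ lam.a lam.z z]
  have h1 : ∑ x ∈ A, Pr lam.μ (fun ω => (lam.a ω, lam.z ω)) (x, z)
      = ∑ x ∈ A ∩ univ.image lam.a, Pr lam.μ (fun ω => (lam.a ω, lam.z ω)) (x, z) := by
    refine (sum_subset inter_subset_left fun x hx hx' => ?_).symm
    refine Pr_eq_zero _ fun ω h => hx' ?_
    refine mem_inter.mpr ⟨hx, ?_⟩
    have : lam.a ω = x := (Prod.mk.inj h).1
    exact this ▸ mem_image_of_mem _ (mem_univ ω)
  rw [h1]
  exact sum_le_sum_of_subset_of_nonneg inter_subset_right fun x _ _ => Pr_nonneg lam.prob _ _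

/-- **Truncation after a refinement** -/
theorem trunc_ref (hT : Trunc) {Γ : Type} [AddCommGroup Γ] {A : Finset Γ} {lam lam1 : Law Γ}
    {g : lam1.Z → lam.Z} {c K0 : ℝ} (hr : Ref lam lam1 g) (hc : lam.costLe A c)
    (hA : ∀ ω, lam1.a ω ∈ A)
    (hK : Hc lam.μ lam.a lam.z - Hc lam1.μ lam1.a lam1.z ≤ K0) :
    ∃ lam' : Law Γ, lam'.costLe A (c + 8 * (K0 + 1) + log 2) ∧
      ∀ p : ℕ, 56 ≤ p → lam'.h (p / 16) ≤ (1 + 56 / (p : ℝ)) * lam1.h p := by
  classical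
  set PP : Γ × lam.Z → ℝ := Pr lam.μ (fun ω => (lam.a ω, lam.z ω)) with hPP
  set PZ : lam.Z → ℝ := Pr lam.μ lam.z with hPZ
  have hPP0 : ∀ y, 0 ≤ PP y := fun y => Pr_nonneg lam.prob _ _
  have hPZ0 : ∀ y, 0 ≤ PZ y := fun y => Pr_nonneg lam.prob _ _
  have hle : ∀ x z, PP (x, z) ≤ PZ z := by
    intro x z
    rw [hPP, hPZ]
    unfold Pr
    refine sum_le_sum fun ω _ => ?_
    by_cases h : (lam.a ω, lam.z ω) = (x, z)
    · rw [if_pos h, if_pos (Prod.mk.inj h).2]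
    · rw [if_neg h]
      split_ifs
      · exact lam.prob.nonneg ω
      · exact le_rfl
  refine hT Γ A lam1 (fun l x => PP (x, g l) / PZ (g l)) c K0 hA
    (fun l x => div_nonneg (hPP0 _) (hPZ0 _)) (fun l => ?_) (fun l x hx => ?_) (fun ω hω => ?_) ?_
  · rw [← sum_div]
    exact div_le_one_of_le₀ (lam.sum_Pr_le A (g l)) (hPZ0 _)
  · by_cases h : ∃ ω, (lam.a ω, lam.z ω) = (x, g l)
    · obtain ⟨ω, hω⟩ := h
      obtain ⟨-, h2⟩ := hc ω
      obtain ⟨e1, e2⟩ := Prod.mk.inj hω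
      rw [e1, e2] at h2
      rcases (hPZ0 (g l)).eq_or_lt with h0 | h0
      · rw [← h0, div_zero, zero_mul]; exact (exp_pos c).le
      · rw [div_mul_eq_mul_div, div_le_iff₀ h0]
        exact h2
    · have h0 : PP (x, g l) = 0 := Pr_eq_zero _ fun ω hω => h ⟨ω, hω⟩
      rw [h0, zero_div, zero_mul]
      exact (exp_pos c).le
  · have h1 : 0 < PP (lam1.a ω, g (lam1.z ω)) := by
      rw [hPP, ← hr (lam1.a ω, g (lam1.z ω))]
      exact Pr_pos lam1.prob (fun ω => (lam1.a ω, g (lam1.z ω))) hω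
    exact div_pos h1 (h1.trans_le (hle _ _))
  · -- the divergence
    have hF := sum_of_law lam1.μ lam.μ (fun ω => (lam1.a ω, g (lam1.z ω)))
      (fun ω => (lam.a ω, lam.z ω)) (fun p => - log (PP p / PZ p.2)) hr
    have e1 := Hc_eq_sum lam.prob lam.a lam.z
    have e2 := Hc_eq_sum lam1.prob lam1.a lam1.z
    refine le_trans (le_of_eq ?_) hK
    rw [e1, e2]
    have hF' : ∑ ω, lam.μ ω * -log (Pr lam.μ (fun ω => (lam.a ω, lam.z ω)) (lam.a ω, lam.z ω)
        / Pr lam.μ lam.z (lam.z ω))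
        = ∑ ω, lam1.μ ω * -log (PP (lam1.a ω, g (lam1.z ω)) / PZ (g (lam1.z ω))) := hF.symm
    rw [hF', ← sum_sub_distrib]
    refine sum_congr rfl fun ω _ => ?_
    rcases (lam1.prob.nonneg ω).eq_or_lt with h0 | h0
    · rw [← h0]; ring
    · have p1 : 0 < Pr lam1.μ (fun ω => (lam1.a ω, lam1.z ω)) (lam1.a ω, lam1.z ω) :=
        Pr_pos lam1.prob (fun ω => (lam1.a ω, lam1.z ω)) h0
      have p2 : 0 < Pr lam1.μ lam1.z (lam1.z ω) := Pr_pos lam1.prob _ h0
      have p3 : 0 < PP (lam1.a ω, g (lam1.z ω)) := by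
        rw [hPP, ← hr (lam1.a ω, g (lam1.z ω))]
        exact Pr_pos lam1.prob (fun ω => (lam1.a ω, g (lam1.z ω))) h0
      have p4 : 0 < PZ (g (lam1.z ω)) := p3.trans_le (hle _ _)
      have p5 : 0 < PP (lam1.a ω, g (lam1.z ω)) / PZ (g (lam1.z ω)) := div_pos p3 p4
      rw [log_div p1.ne' (mul_pos p2 p5).ne', log_mul p2.ne' p5.ne', log_div p1.ne' p2.ne']
      ring

end Vale.Agent.P091.AD
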